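import Vale.Agent.P154.B4.Master2
import Vale.Agent.P154.B4.Pol3

/-! # P154 q = 4, binary tree: the tables of the certificate P (positivity of the multiplier) and their checks -/

namespace Vale.Agent.P154.B4

open Vale.Agent.Util.Polya

def bpLd : TL :=
  []

def bpTd : T3 :=
  []

def bpS0 : TL :=
  [(14, 0, 0, 0, 0), (-18, 1, 0, 0, 0), (6, 1, 1, 0, 0), (-24, 2, 0, 0, 0), (3, 2, 1, 0, 0),
  (35, 3, 0, 0, 0), (-3, 2, 2, 0, 0), (-6, 3, 1, 0, 0), (-11, 4, 0, 0, 0), (3, 3, 2, 0, 0),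
  (1, 5, 0, 0, 0)]
def bpSt0 : T3 :=
  [(-153600000, 0, 0, 1), (-38400000, 0, 1, 0), (307200000, 1, 0, 0), (19200000, 1, 1, 0),
  (38400000, 2, 0, 0)]
def bpT0 : TL :=
  [(1, 0, 0, 0, 0)]
def bpTt0 : T3 :=
  [(76800000, 0, 0, 0)]

def bpXs : List TL := [bpS0]
def bpXt : List TL := [bpT0]

def bpP : List (PE × PE) := bPairs 5 (dgS bpLd ++ bpXs) (dgT bpLd ++ bpXt)

theorem bpS0_chk : chkA 5 bpS0 bpSt0 = true := by decide +kernel
theorem bpT0_chk : chkA 5 bpT0 bpTt0 = true := by decide +kernel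

theorem bp_good : good 5 5 96 bpP = true := by decide +kernel
theorem bp_bnd : 2 * bnd bpP < 2 ^ 96 := by decide +kernel
theorem bp_check : check 96 6 5 bpP 0 (6 * 6) = true := by decide +kernel

end Vale.Agent.P154.B4
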