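import Vale.Agent.P154.B4.Min

/-! # P154 q = 4, binary tree: the multipliers of the two pointwise inequalities -/

namespace Vale.Agent.P154.B4

open Finset

/-- multiplier of the subadditivity inequality -/
noncomputable def pB (a : Fin 4 → ℝ) : ℝ :=
  2 * alQ a - m4 a / 2 + 3 * alQ a ^ 2 - (∑ i, a i ^ 4) / 12 + 3 * alQ a * m4 a

/-- multiplier of the closure inequality -/
noncomputable def cB (a : Fin 4 → ℝ) : ℝ := (1 - 3 / 2 * alQ a) ^ 2

theorem alQ4 (a : Fin 4 → ℝ) : alQ a = (∑ i, a i ^ 2) / 12 := by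
  unfold alQ
  norm_num

theorem cB_nonneg (a : Fin 4 → ℝ) : 0 ≤ cB a := sq_nonneg _

end Vale.Agent.P154.B4
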