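import Vale.Agent.P154.B4.DataC
import Vale.Agent.P154.B4.Mult

/-! # P154 q = 4, binary tree: the values of the tables of the certificate C -/

namespace Vale.Agent.P154.B4

open Finset

theorem bcLd_eq (u : Fin 4 → ℝ) :
    sm 9 bcLd (1600 * u 0) (1600 * u 1) (1600 * u 2) (1600 * u 3) 400 =
      197912092999680000000000000000000000 * FLr (e1Q u) (e2Q u) (e3Q u) := by
  rw [sm_fu 9 bcLd bcTd bcLd_chk u]
  generalize e1Q u = e1
  generalize e2Q u = e2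
  generalize e3Q u = e3
  simp only [bcTd, ev3T, FLr, GUr, mL1, mL2, mL3, mM1]
  push_cast
  ring

theorem bcS0_eq (a : Fin 4 → ℝ) :
    sm 9 bcS0 (20 * (1 + a 0)) (20 * (1 + a 1)) (20 * (1 + a 2)) (20 * (1 + a 3)) 20 =
      1474560000000000 * ps4 (21 / 10) a := by
  rw [sm_fa 9 bcS0 bcSt0 bcS0_chk a]
  simp only [bcSt0, ev3T, pB, cB, ps4, m4, alQ4]
  push_cast
  ring

theorem bcT0_eq (a : Fin 4 → ℝ) :
    sm 9 bcT0 (20 * (1 + a 0)) (20 * (1 + a 1)) (20 * (1 + a 2)) (20 * (1 + a 3)) 20 =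
      -3221225472000000000000 * cB a := by
  rw [sm_fa 9 bcT0 bcTt0 bcT0_chk a]
  simp only [bcTt0, ev3T, pB, cB, ps4, m4, alQ4]
  push_cast
  ring

theorem bcS1_eq (a : Fin 4 → ℝ) :
    sm 9 bcS1 (20 * (1 + a 0)) (20 * (1 + a 1)) (20 * (1 + a 2)) (20 * (1 + a 3)) 20 =
      196608000000000 * cB a := by
  rw [sm_fa 9 bcS1 bcSt1 bcS1_chk a]
  simp only [bcSt1, ev3T, pB, cB, ps4, m4, alQ4]
  push_cast
  ring

theorem bcT1_eq (a : Fin 4 → ℝ) :
    sm 9 bcT1 (20 * (1 + a 0)) (20 * (1 + a 1)) (20 * (1 + a 2)) (20 * (1 + a 3)) 20 =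
      -24159191040000000000000 * ps4 (21 / 10) a := by
  rw [sm_fa 9 bcT1 bcTt1 bcT1_chk a]
  simp only [bcTt1, ev3T, pB, cB, ps4, m4, alQ4]
  push_cast
  ring

end Vale.Agent.P154.B4
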