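import Vale.Agent.P154.B4.DataP
import Vale.Agent.P154.B4.Mult

/-! # P154 q = 4, binary tree: the values of the tables of the certificate P -/

namespace Vale.Agent.P154.B4

open Finset

theorem bpS0_eq (a : Fin 4 → ℝ) :
    sm 5 bpS0 (20 * (1 + a 0)) (20 * (1 + a 1)) (20 * (1 + a 2)) (20 * (1 + a 3)) 20 =
      1843200000 * pB a := by
  rw [sm_fa 5 bpS0 bpSt0 bpS0_chk a]
  simp only [bpSt0, ev3T, pB, cB, ps4, m4, alQ4]
  push_cast
  ring

theorem bpT0_eq (a : Fin 4 → ℝ) :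
    sm 5 bpT0 (20 * (1 + a 0)) (20 * (1 + a 1)) (20 * (1 + a 2)) (20 * (1 + a 3)) 20 =
      76800000 * 1 := by
  rw [sm_fa 5 bpT0 bpTt0 bpT0_chk a]
  simp only [bpTt0, ev3T, pB, cB, ps4, m4, alQ4]
  push_cast
  ring

end Vale.Agent.P154.B4
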