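import Vale.Agent.P154.B4.EqP
import Vale.Agent.P154.B4.EqX
import Vale.Agent.P154.B4.EqC

/-!
# P154 q = 4, binary tree: the two pointwise inequalities for two messages, and the theorem

`Pt4B (5/7) (3/2) (1/10) pB pB cB cB`, hence `aTV 4 2 lam n → 0` for `0 ≤ lam`, `2 lam^2 ≤ 1`.
-/

namespace Vale.Agent.P154.B4

open Finset Filter Topology

theorem fact4 : ((Nat.factorial 4 : ℕ) : ℝ) = 24 := by
  norm_num [Nat.factorial]

theorem pB_nonneg (a : Fin 4 → ℝ) (ha : DT (5 / 7) a) : 0 ≤ pB a := by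
  have key := master2 96 6 5 bpLd bpXs bpXt (by norm_num) (by norm_num) bp_good bp_bnd bp_check
    a a ha ha
  simp only [bpXs, bpXt, List.map, dotRR, bpS0_eq, bpT0_eq, bpLd, sm, Finset.sum_const_zero] at key
  linarith

theorem X4B (a b : Fin 4 → ℝ) (ha : DT (5 / 7) a) (hb : DT (5 / 7) b) :
    avQ (KQ alQ a) b ≤ alQ a + alQ b - pB b * ps4 (21 / 10) a - pB a * ps4 (21 / 10) b
      - 1 / 10 * (alQ a ^ 2 * alQ b + alQ a * alQ b ^ 2) := by
  have key := master2 128 8 7 bxLd bxXs bxXt (by norm_num) (by norm_num) bx_good bx_bnd bx_check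
    a b ha hb
  simp only [bxXs, bxXt, List.map, dotRR, bxLd_eq, bxS0_eq, bxT0_eq, bxS1_eq, bxT1_eq, bxS2_eq,
    bxT2_eq, bxS3_eq, bxT3_eq, bxS4_eq, bxT4_eq, bxS5_eq, bxT5_eq] at key
  rw [← Finset.mul_sum] at key
  have hsum : ∑ σ : Equiv.Perm (Fin 4), KQ alQ a (fun i => b (σ i)) ≤
      ∑ σ : Equiv.Perm (Fin 4),
        GUr (e1Q (uQ a (fun i => b (σ i)))) (e2Q (uQ a (fun i => b (σ i)))) :=
    Finset.sum_le_sum fun σ _ => KQ_al_le a _ (ZQ_pos57 a _ ha (dt_perm _ b hb σ))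
      (uQ_nonneg57 a _ ha (dt_perm _ b hb σ))
  unfold avQ
  rw [fact4, div_le_iff₀ (by norm_num)]
  generalize (∑ σ : Equiv.Perm (Fin 4), KQ alQ a (fun i => b (σ i))) = SK at *
  generalize (∑ σ : Equiv.Perm (Fin 4),
        GUr (e1Q (uQ a (fun i => b (σ i)))) (e2Q (uQ a (fun i => b (σ i))))) = SG at *
  linarith

theorem C4B (a b : Fin 4 → ℝ) (ha : DT (5 / 7) a) (hb : DT (5 / 7) b) :
    cB b * ps4 (21 / 10) a + cB a * ps4 (21 / 10) b ≤ avQ (KQ (ps4 (3 / 2)) a) b := by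
  have key := master2 192 10 9 bcLd bcXs bcXt (by norm_num) (by norm_num) bc_good bc_bnd bc_check
    a b ha hb
  simp only [bcXs, bcXt, List.map, dotRR, bcLd_eq, bcS0_eq, bcT0_eq, bcS1_eq, bcT1_eq] at key
  rw [← Finset.mul_sum] at key
  have hsum : ∑ σ : Equiv.Perm (Fin 4),
        FLr (e1Q (uQ a (fun i => b (σ i)))) (e2Q (uQ a (fun i => b (σ i))))
          (e3Q (uQ a (fun i => b (σ i)))) ≤
      ∑ σ : Equiv.Perm (Fin 4), KQ (ps4 (3 / 2)) a (fun i => b (σ i)) :=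
    Finset.sum_le_sum fun σ _ => KQ_ps_ge a _ (ZQ_pos57 a _ ha (dt_perm _ b hb σ))
      (uQ_nonneg57 a _ ha (dt_perm _ b hb σ))
  unfold avQ
  rw [fact4, le_div_iff₀ (by norm_num)]
  generalize (∑ σ : Equiv.Perm (Fin 4), KQ (ps4 (3 / 2)) a (fun i => b (σ i))) = SK at *
  generalize (∑ σ : Equiv.Perm (Fin 4),
        FLr (e1Q (uQ a (fun i => b (σ i)))) (e2Q (uQ a (fun i => b (σ i))))
          (e3Q (uQ a (fun i => b (σ i))))) = SG at *
  linarith

/-- the two pointwise inequalities for two messages of the binary tree -/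
theorem pt4B : Pt4B (5 / 7) (3 / 2) (1 / 10) pB pB cB cB := by
  have hk : (3 / 2 : ℝ) / (5 / 7) = 21 / 10 := by norm_num
  refine ⟨?_, ?_, fun b hb => pB_nonneg b hb, fun b _ => cB_nonneg b, fun a ha => pB_nonneg a ha,
    fun a _ => cB_nonneg a⟩
  · intro a b ha hb
    rw [hk]
    exact X4B a b ha hb
  · intro a b ha hb
    rw [hk]
    exact C4B a b ha hb

/-- **Four colours, binary tree**: no reconstruction up to and including the Kesten-Stigum bound `2 lam^2 = 1`. -/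
theorem bin4_nonreconstruction (lam : ℝ) (h0 : 0 ≤ lam) (h2 : (2 : ℝ) * lam ^ 2 ≤ 1) :
    Tendsto (fun n => aTV 4 2 lam n) atTop (𝓝 0) :=
  bin4_of_pointwiseB pt4B (by norm_num) (by norm_num) (by norm_num) (by norm_num) (by norm_num)
    lam h0 (by nlinarith) h2

end Vale.Agent.P154.B4
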