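import Vale.Agent.P154.R4K.SmPE
import Vale.Agent.P154.R4.BilC
import Vale.Agent.P154.R4.Link
import Vale.Agent.P154.Q4.Bin4

/-!
# P154 q = 4, binary tree: from the coefficient check to an inequality for all pairs of messages

Both deviation vectors satisfy `a i ≥ -5/7`.  In the chamber coordinates `s ≥ 0` of `5/7 + a` (`4 s0 + 3 s1 + 2 s2 + s3 = 20/7`)
the numbers `20 (1 + a i)` and `20` are linear forms with natural coefficients.
-/

namespace Vale.Agent.P154.B4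

open Finset Vale.Agent.Util.Polya

def linE (c0 c1 c2 c3 : ℤ) : PE :=
  .add (.add (.add (.mul (.c c0) (.v 0)) (.mul (.c c1) (.v 1))) (.mul (.c c2) (.v 2)))
    (.mul (.c c3) (.v 3))

theorem ev_linE (s : Fin 4 → ℝ) (c0 c1 c2 c3 : ℤ) :
    PE.ev s (linE c0 c1 c2 c3) = c0 * s 0 + c1 * s 1 + c2 * s 2 + c3 * s 3 := by
  simp only [linE, PE.ev]

def bX0 : PE := linE 28 26 24 22
def bX1 : PE := linE 28 26 24 2
def bX2 : PE := linE 28 26 4 2
def bX3 : PE := linE 28 6 4 2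
def bH : PE := linE 28 21 14 7

def bPairs (D : ℕ) (Ls Lt : List TL) : List (PE × PE) :=
  pairsE D D bX0 bX1 bX2 bX3 bH bX0 bX1 bX2 bX3 bH Ls Lt

theorem cham57 (a : Fin 4 → ℝ) (ha : DT (5 / 7) a) :
    ∃ (τ : Equiv.Perm (Fin 4)) (s : Fin 4 → ℝ), (∀ i, 0 ≤ s i) ∧
      PE.ev s bX0 = 20 * (1 + a (τ 0)) ∧ PE.ev s bX1 = 20 * (1 + a (τ 1)) ∧
      PE.ev s bX2 = 20 * (1 + a (τ 2)) ∧ PE.ev s bX3 = 20 * (1 + a (τ 3)) ∧ PE.ev s bH = 20 := by
  obtain ⟨τ, s0, s1, s2, s3, h0, h1, h2, h3, hsum, e0, e1, e2, e3⟩ :=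
    cham_perm (fun i => 5 / 7 + a i) (fun i => by linarith [ha.2 i])
  have hs : ∑ i : Fin 4, (5 / 7 + a i) = 20 / 7 := by
    rw [Finset.sum_add_distrib, ha.1]
    simp
    norm_num
  rw [hs] at hsum
  refine ⟨τ, ![s0, s1, s2, s3], ?_, ?_, ?_, ?_, ?_, ?_⟩
  · intro i
    fin_cases i <;> simp [h0, h1, h2, h3]
  all_goals
    simp only [bX0, bX1, bX2, bX3, bH, ev_linE, Matrix.cons_val_zero, Matrix.cons_val_one,
      Matrix.cons_val]
    push_cast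
    linarith

theorem sm_perm (D : ℕ) (L : TL) (A : Fin 4 → ℝ) (τ : Equiv.Perm (Fin 4)) (h : ℝ) :
    sm D L (A (τ 0)) (A (τ 1)) (A (τ 2)) (A (τ 3)) h = sm D L (A 0) (A 1) (A 2) (A 3) h :=
  sm_congr D L _ _ _ _ _ _ _ _ h (fun a b c d => pmV_perm A τ a b c d)

theorem master2 (w S D : ℕ) (Ld : TL) (Xs Xt : List TL) (hw : 0 < w) (hD : D < S)
    (hg : good D D w (bPairs D (dgS Ld ++ Xs) (dgT Ld ++ Xt)) = true)
    (hb : 2 * bnd (bPairs D (dgS Ld ++ Xs) (dgT Ld ++ Xt)) < 2 ^ w)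
    (hc : check w S D (bPairs D (dgS Ld ++ Xs) (dgT Ld ++ Xt)) 0 (S * S) = true)
    (a b : Fin 4 → ℝ) (ha : DT (5 / 7) a) (hb' : DT (5 / 7) b) :
    0 ≤ ∑ σ : Equiv.Perm (Fin 4),
        sm D Ld (1600 * uQ a (fun i => b (σ i)) 0) (1600 * uQ a (fun i => b (σ i)) 1)
          (1600 * uQ a (fun i => b (σ i)) 2) (1600 * uQ a (fun i => b (σ i)) 3) 400
      + dotRR
          (Xs.map (fun l => sm D l (20 * (1 + a 0)) (20 * (1 + a 1)) (20 * (1 + a 2))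
            (20 * (1 + a 3)) 20))
          (Xt.map (fun l => sm D l (20 * (1 + b 0)) (20 * (1 + b 1)) (20 * (1 + b 2))
            (20 * (1 + b 3)) 20)) := by
  obtain ⟨τ, s, hs, a0, a1, a2, a3, ah⟩ := cham57 a ha
  obtain ⟨τ', t, ht, b0, b1, b2, b3, bh⟩ := cham57 b hb'
  have key := dotRR_nonneg_of_check w S D D bX0 bX1 bX2 bX3 bH bX0 bX1 bX2 bX3 bH
    (dgS Ld ++ Xs) (dgT Ld ++ Xt) hw hD hD hg hb hc s t hs ht
  rw [a0, a1, a2, a3, ah, b0, b1, b2, b3, bh] at key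
  have ea : (fun L => sm D L (20 * (1 + a (τ 0))) (20 * (1 + a (τ 1))) (20 * (1 + a (τ 2)))
      (20 * (1 + a (τ 3))) 20) =
      fun L => sm D L (20 * (1 + a 0)) (20 * (1 + a 1)) (20 * (1 + a 2)) (20 * (1 + a 3)) 20 :=
    funext fun L => sm_perm D L (fun i => 20 * (1 + a i)) τ 20
  have eb : (fun L => sm D L (20 * (1 + b (τ' 0))) (20 * (1 + b (τ' 1))) (20 * (1 + b (τ' 2)))
      (20 * (1 + b (τ' 3))) 20) =
      fun L => sm D L (20 * (1 + b 0)) (20 * (1 + b 1)) (20 * (1 + b 2)) (20 * (1 + b 3)) 20 :=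
    funext fun L => sm_perm D L (fun i => 20 * (1 + b i)) τ' 20
  rw [ea, eb, List.map_append, List.map_append,
    dotRR_append _ _ _ _ (by simp [dgS, dgT])] at key
  have hd := dotRR_diag D Ld (fun i => 20 * (1 + a i)) (fun i => 20 * (1 + b i)) 20 20
  beta_reduce at hd
  rw [hd] at key
  have e : ∀ σ : Equiv.Perm (Fin 4),
      sm D Ld (20 * (1 + a 0) * (20 * (1 + b (σ 0)))) (20 * (1 + a 1) * (20 * (1 + b (σ 1))))
        (20 * (1 + a 2) * (20 * (1 + b (σ 2)))) (20 * (1 + a 3) * (20 * (1 + b (σ 3)))) (20 * 20) =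
      sm D Ld (1600 * uQ a (fun i => b (σ i)) 0) (1600 * uQ a (fun i => b (σ i)) 1)
          (1600 * uQ a (fun i => b (σ i)) 2) (1600 * uQ a (fun i => b (σ i)) 3) 400 := by
    intro σ
    unfold uQ
    congr 1 <;> ring
  simp only [e] at key
  exact key

end Vale.Agent.P154.B4
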