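import Vale.Agent.P154.R4.KForm
import Vale.Agent.P154.R4.CertA
import Vale.Agent.P154.Q4.Bin4

/-!
# P154 q = 4, binary tree: polynomial bounds of the two kernels

For `Z > 0` the polynomials `mL1, mM1 ≤ 1 / Z`, `mL2 ≤ 1 / Z ^ 2`, `mL3 ≤ 1 / Z ^ 3` (each difference is an explicit product of squares and a positive factor).
With `k = 3/2`: `KQ (ps4 k) a b = -e1 + 16 e3 / e1^2 + (3/2) n2 / e1 + 4 n2 e2 / e1^3`, `n2 = e1^2 - (8/3) e2 ≥ 0`.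
-/

namespace Vale.Agent.P154.B4

open Finset

noncomputable def mL1 (Z : ℝ) : ℝ := 1 - (Z - 1) + 16 / 25 * (Z - 1) ^ 2 - 4 / 25 * (Z - 1) ^ 3

noncomputable def mL2 (Z : ℝ) : ℝ :=
  1 - 2 * (Z - 1) + 3 * (Z - 1) ^ 2 - 4 * (Z - 1) ^ 3 + 7 / 2 * (Z - 1) ^ 4 - 5 / 4 * (Z - 1) ^ 5

noncomputable def mL3 (Z : ℝ) : ℝ :=
  1 - 3 * (Z - 1) + 13441677 / 2560000 * (Z - 1) ^ 2 - 13945423 / 2560000 * (Z - 1) ^ 3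
    + 186639 / 64000 * (Z - 1) ^ 4 - 15603 / 25600 * (Z - 1) ^ 5

noncomputable def mM1 (Z : ℝ) : ℝ :=
  1 - (Z - 1) + (Z - 1) ^ 2 - (Z - 1) ^ 3 + 3 / 4 * (Z - 1) ^ 4 - 1 / 4 * (Z - 1) ^ 5

theorem mL1_le (Z : ℝ) (hZ : 0 < Z) : mL1 Z ≤ 1 / Z := by
  rw [le_div_iff₀ hZ]
  have h : 1 - mL1 Z * Z = 4 / 25 * ((Z - 1) * (Z - 1 - 3 / 2)) ^ 2 := by
    unfold mL1
    ring
  have h2 : 0 ≤ 4 / 25 * ((Z - 1) * (Z - 1 - 3 / 2)) ^ 2 := by positivity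
  linarith

theorem mM1_le (Z : ℝ) (hZ : 0 < Z) : mM1 Z ≤ 1 / Z := by
  rw [le_div_iff₀ hZ]
  have h : 1 - mM1 Z * Z = 1 / 4 * ((Z - 1) ^ 2 * (Z - 1 - 1)) ^ 2 := by
    unfold mM1
    ring
  have h2 : 0 ≤ 1 / 4 * ((Z - 1) ^ 2 * (Z - 1 - 1)) ^ 2 := by positivity
  linarith

theorem mL2_le (Z : ℝ) (hZ : 0 < Z) : mL2 Z ≤ 1 / Z ^ 2 := by
  rw [le_div_iff₀ (by positivity)]
  have h : 1 - mL2 Z * Z ^ 2 = ((Z - 1) ^ 2 * (Z - 1 - 1)) ^ 2 * (1 / 4 + 5 / 4 * Z) := by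
    unfold mL2
    ring
  have h2 : 0 ≤ ((Z - 1) ^ 2 * (Z - 1 - 1)) ^ 2 * (1 / 4 + 5 / 4 * Z) := by positivity
  linarith

theorem mL3_le (Z : ℝ) (hZ : 0 < Z) : mL3 Z ≤ 1 / Z ^ 3 := by
  rw [le_div_iff₀ (by positivity)]
  have h : 1 - mL3 Z * Z ^ 3 = ((Z - 1) * (Z - 1 - 3 / 5) * (Z - 1 - 3 / 2)) ^ 2 *
      (23683 / 25600 + 18843 / 12800 * (Z - 1) + 15603 / 25600 * (Z - 1) ^ 2) := by
    unfold mL3
    ring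
  have h3 : 0 ≤ 23683 / 25600 + 18843 / 12800 * (Z - 1) + 15603 / 25600 * (Z - 1) ^ 2 := by
    nlinarith [sq_nonneg (15603 * (Z - 1) + 18843)]
  have h2 : 0 ≤ ((Z - 1) * (Z - 1 - 3 / 5) * (Z - 1 - 3 / 2)) ^ 2 *
      (23683 / 25600 + 18843 / 12800 * (Z - 1) + 15603 / 25600 * (Z - 1) ^ 2) :=
    mul_nonneg (sq_nonneg _) h3
  linarith

/-- the polynomial lower bound of `KQ (ps4 (3/2))` -/
noncomputable def FLr (e1 e2 e3 : ℝ) : ℝ :=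
  -e1 + 16 * e3 * mL2 e1 + 3 / 2 * (e1 ^ 2 - 8 / 3 * e2) * mL1 e1
    + 4 * (e1 ^ 2 - 8 / 3 * e2) * e2 * mL3 e1

/-- the polynomial upper bound of `KQ alQ` -/
noncomputable def GUr (e1 e2 : ℝ) : ℝ := e1 - 8 / 3 * e2 * mM1 e1

theorem n2Q_nonneg (U : Fin 4 → ℝ) : 0 ≤ e1Q U ^ 2 - 8 / 3 * e2Q U := by
  unfold e1Q e2Q
  nlinarith [sq_nonneg (U 0 - U 1), sq_nonneg (U 0 - U 2), sq_nonneg (U 0 - U 3),
    sq_nonneg (U 1 - U 2), sq_nonneg (U 1 - U 3), sq_nonneg (U 2 - U 3)]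

theorem KQ_ps_ge (a b : Fin 4 → ℝ) (hZ : 0 < ZQ a b) (hu : ∀ i, 0 ≤ uQ a b i) :
    FLr (e1Q (uQ a b)) (e2Q (uQ a b)) (e3Q (uQ a b)) ≤ KQ (ps4 (3 / 2)) a b := by
  rw [← psK_eq_ps4, KQ_ps_eq _ a b hZ]
  have hZ' : 0 < e1Q (uQ a b) := ZQ_eq_e1 a b ▸ hZ
  have h2 := e2Q_nonneg _ hu
  have h3 := e3Q_nonneg _ hu
  have hn := n2Q_nonneg (uQ a b)
  generalize e1Q (uQ a b) = e1 at *
  generalize e2Q (uQ a b) = e2 at *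
  generalize e3Q (uQ a b) = e3 at *
  have l1 := mL1_le e1 hZ'
  have l2 := mL2_le e1 hZ'
  have l3 := mL3_le e1 hZ'
  have e : (2 - 3 / 2) * e1 + (16 * (3 / 2) / 3 - 8) * e2 / e1 + 16 * e3 / e1 ^ 2
      - 64 * (3 / 2) / 9 * e2 ^ 2 / e1 ^ 3 =
      -e1 + 16 * e3 * (1 / e1 ^ 2) + 3 / 2 * (e1 ^ 2 - 8 / 3 * e2) * (1 / e1)
        + 4 * (e1 ^ 2 - 8 / 3 * e2) * e2 * (1 / e1 ^ 3) := by
    have hne : e1 ≠ 0 := hZ'.ne'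
    field_simp
    ring
  rw [e]
  unfold FLr
  have t1 : 16 * e3 * mL2 e1 ≤ 16 * e3 * (1 / e1 ^ 2) :=
    mul_le_mul_of_nonneg_left l2 (by positivity)
  have t2 : 3 / 2 * (e1 ^ 2 - 8 / 3 * e2) * mL1 e1 ≤ 3 / 2 * (e1 ^ 2 - 8 / 3 * e2) * (1 / e1) :=
    mul_le_mul_of_nonneg_left l1 (by positivity)
  have t3 : 4 * (e1 ^ 2 - 8 / 3 * e2) * e2 * mL3 e1 ≤
      4 * (e1 ^ 2 - 8 / 3 * e2) * e2 * (1 / e1 ^ 3) :=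
    mul_le_mul_of_nonneg_left l3 (by positivity)
  linarith

theorem KQ_al_le (a b : Fin 4 → ℝ) (hZ : 0 < ZQ a b) (hu : ∀ i, 0 ≤ uQ a b i) :
    KQ alQ a b ≤ GUr (e1Q (uQ a b)) (e2Q (uQ a b)) := by
  rw [KQ_al_eq a b hZ]
  have hZ' : 0 < e1Q (uQ a b) := ZQ_eq_e1 a b ▸ hZ
  have h2 := e2Q_nonneg _ hu
  generalize e1Q (uQ a b) = e1 at *
  generalize e2Q (uQ a b) = e2 at *
  have l1 := mM1_le e1 hZ'
  unfold GUr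
  have t1 : 8 / 3 * e2 * mM1 e1 ≤ 8 / 3 * e2 * (1 / e1) :=
    mul_le_mul_of_nonneg_left l1 (by positivity)
  have e : 8 / 3 * e2 / e1 = 8 / 3 * e2 * (1 / e1) := by ring
  rw [e]
  linarith

/-- positivity facts for two messages and a relative permutation -/
theorem dt_perm (r : ℝ) (b : Fin 4 → ℝ) (hb : DT r b) (σ : Equiv.Perm (Fin 4)) :
    DT r (fun i => b (σ i)) :=
  ⟨by rw [Equiv.sum_comp σ b]; exact hb.1, fun i => hb.2 (σ i)⟩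

theorem ZQ_pos57 (a b : Fin 4 → ℝ) (ha : DT (5 / 7) a) (hb : DT (5 / 7) b) : 0 < ZQ a b :=
  ZQ_pos (by norm_num) a b ha.1 (fun i => by linarith [ha.2 i]) (fun i => by linarith [hb.2 i])

theorem uQ_nonneg57 (a b : Fin 4 → ℝ) (ha : DT (5 / 7) a) (hb : DT (5 / 7) b) (i : Fin 4) :
    0 ≤ uQ a b i := by
  unfold uQ
  have h1 := ha.2 i
  have h2 := hb.2 i
  have : 0 ≤ (1 + a i) * (1 + b i) := mul_nonneg (by linarith) (by linarith)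
  linarith

end Vale.Agent.P154.B4
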